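import Vale.Agent.P132.Main

/-! The bicentralizer of a faithful normal state on a factor with full modular spectra
is trivial. -/

namespace Vale.Agent.Results.P132.Bicentralizer

open Vale.Agent.P132

universe u

theorem result {H : Type u} [NormedAddCommGroup H] [InnerProductSpace ℂ H] [CompleteSpace H]
    (M : VonNeumannAlgebra H) (hM : IsFactor M) (hS : FullSpec M)
    (φ : (H →L[ℂ] H) → ℂ) (hn : IsNormalState M φ) (hf : IsFaithful M φ) :
    bicentralizer M φ = Set.range fun c : ℂ => c • (1 : H →L[ℂ] H) :=
  main M hM hS φ hn hf

end Vale.Agent.Results.P132.Bicentralizer
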