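import Vale.Agent.P132.Main
import Vale.Agent.P132.LitA
import Vale.Agent.P132.LitB

/-! The bicentralizer conjecture of Connes. -/

namespace Vale.Agent.Results.P132.TypeIIIOne

open Vale.Agent.P132.Lit

universe u

theorem result {H : Type u} [NormedAddCommGroup H] [InnerProductSpace ℂ H] [CompleteSpace H]
    (M : VonNeumannAlgebra H) (hM : IsTypeIIIOne M)
    (φ : (H →L[ℂ] H) → ℂ) (hφ : IsFNState M φ) :
    bicentralizer M φ = Set.range fun c : ℂ => c • (1 : H →L[ℂ] H) :=
  Vale.Agent.P132.main M hM.1 hM.fullSpec φ hφ.isNormalState hφ.isFaithful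

end Vale.Agent.Results.P132.TypeIIIOne
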